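import Vale.Agent.P372.TestDefs

/-!
# Sites, replacement maps, Hermitian corners

`D i Q X = tr_i (Q X) ⊗ 1 / d`: the site `i` is measured against `Q` and replaced by the
maximally mixed state; everything lives on the index type `(Fin n → A) × (Fin n → B)`.
-/

set_option autoImplicit false
set_option linter.unusedSectionVars false

open Matrix Kronecker Finset
open scoped ComplexOrder

namespace Vale.Agent.P372.H739

section

variable {I : Type} [Fintype I] [DecidableEq I]

/-- `Z` is a Hermitian corner of `X`, `Y`. -/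
def Corner (X Y Z : Matrix I I ℂ) : Prop := Z.IsHermitian ∧ (fromBlocks X Z Z Y).PosSemidef

/-- The supremum of `Re tr (V Z)` over the Hermitian corners `Z` of `X`, `Y`. -/
noncomputable def G (V X Y : Matrix I I ℂ) : ℝ :=
  sSup {r | ∃ Z, Corner X Y Z ∧ r = (V * Z).trace.re}

end

variable {A B : Type} [Fintype A] [DecidableEq A] [Fintype B] [DecidableEq B] {n : ℕ}

/-- Replace the entry of the site `i`. -/
def up (p : (Fin n → A) × (Fin n → B)) (i : Fin n) (x : A × B) : (Fin n → A) × (Fin n → B) :=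
  (Function.update p.1 i x.1, Function.update p.2 i x.2)

/-- The entry of the site `i`. -/
def at' (p : (Fin n → A) × (Fin n → B)) (i : Fin n) : A × B := (p.1 i, p.2 i)

/-- `tr_i (Q X) ⊗ 1 / d`. -/
noncomputable def D (i : Fin n) (Q : Matrix (A × B) (A × B) ℂ)
    (X : Matrix ((Fin n → A) × (Fin n → B)) ((Fin n → A) × (Fin n → B)) ℂ) :
    Matrix ((Fin n → A) × (Fin n → B)) ((Fin n → A) × (Fin n → B)) ℂ :=
  fun p q => if at' p i = at' q i then
    ((Fintype.card A : ℂ) * (Fintype.card B : ℂ))⁻¹ *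
      ∑ x : A × B, ∑ y : A × B, Q y x * X (up p i x) (up q i y) else 0

/-- The product operator `⊗ v i`. -/
def wt (v : Fin n → Matrix (A × B) (A × B) ℂ) :
    Matrix ((Fin n → A) × (Fin n → B)) ((Fin n → A) × (Fin n → B)) ℂ :=
  fun p q => ∏ i, v i (at' p i) (at' q i)

/-- Before the exchange: each site of the list is kept (weight `2/3`) or replaced against `Q`. -/
noncomputable def Phi (Q : Matrix (A × B) (A × B) ℂ) : List (Fin n) →
    (Fin n → Matrix (A × B) (A × B) ℂ) →
    Matrix ((Fin n → A) × (Fin n → B)) ((Fin n → A) × (Fin n → B)) ℂ →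
    Matrix ((Fin n → A) × (Fin n → B)) ((Fin n → A) × (Fin n → B)) ℂ → ℝ
  | [], v, X, Y => G (wt v) X Y
  | i :: l, v, X, Y => 2 / 3 * Phi Q l v X Y + 1 / 3 * Phi Q l v (D i Q X) (D i Q Y)

/-- After the exchange: each site of the list is replaced against `1` (weight `2/3`) or kept
with the weight `Q`. -/
noncomputable def Psi (Q : Matrix (A × B) (A × B) ℂ) : List (Fin n) →
    (Fin n → Matrix (A × B) (A × B) ℂ) →
    Matrix ((Fin n → A) × (Fin n → B)) ((Fin n → A) × (Fin n → B)) ℂ →
    Matrix ((Fin n → A) × (Fin n → B)) ((Fin n → A) × (Fin n → B)) ℂ → ℝ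
  | [], v, X, Y => G (wt v) X Y
  | i :: l, v, X, Y => 2 / 3 * Psi Q l v (D i 1 X) (D i 1 Y) +
      1 / 3 * Psi Q l (Function.update v i Q) X Y

theorem tpow_eq_wt (R : Matrix (A × B) (A × B) ℂ) : tpow n R = wt fun _ => R := rfl

end Vale.Agent.P372.H739
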