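import Vale.Agent.P372.H739.Site
import Vale.Agent.P372.Swap.Core

/-!
# KEY: the exchange inequality over the sites, and the end term
-/

set_option autoImplicit false
set_option linter.unusedSectionVars false

open Matrix Kronecker Finset
open scoped ComplexOrder MatrixOrder

namespace Vale.Agent.P372.H739

section

variable {I : Type} [Fintype I] [DecidableEq I]

/-! ### corners -/

theorem Corner.add {X Y Z X' Y' Z' : Matrix I I ℂ} (h : Corner X Y Z) (h' : Corner X' Y' Z') :
    Corner (X + X') (Y + Y') (Z + Z') := by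
  refine ⟨h.1.add h'.1, ?_⟩
  have := h.2.add h'.2
  rwa [fromBlocks_add] at this

theorem Corner.smul {X Y Z : Matrix I I ℂ} (h : Corner X Y Z) {c : ℝ} (hc : 0 ≤ c) :
    Corner ((c : ℂ) • X) ((c : ℂ) • Y) ((c : ℂ) • Z) := by
  constructor
  · unfold IsHermitian
    rw [conjTranspose_smul, h.1.eq]
    simp
  · have h1 : fromBlocks ((c : ℂ) • X) ((c : ℂ) • Z) ((c : ℂ) • Z) ((c : ℂ) • Y) =
        (c : ℂ) • fromBlocks X Z Z Y := by rw [fromBlocks_smul]
    rw [h1]
    exact h.2.smul (by exact_mod_cast hc)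

/-- the two coordinate embeddings -/
def emL : Matrix (I ⊕ I) I ℂ := fun s j => Sum.elim (fun i => (1 : Matrix I I ℂ) i j) (fun _ => 0) s

/-- the two coordinate embeddings -/
def emR : Matrix (I ⊕ I) I ℂ := fun s j => Sum.elim (fun _ => 0) (fun i => (1 : Matrix I I ℂ) i j) s

theorem emL_apply (X : Matrix I I ℂ) : emL * X * emLᴴ = fromBlocks X 0 0 0 := by
  ext a b
  rw [mul_apply]
  rcases a with a | a <;> rcases b with b | b <;>
    simp [emL, mul_apply, one_apply, conjTranspose_apply]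

theorem emR_apply (X : Matrix I I ℂ) : emR * X * emRᴴ = fromBlocks 0 0 0 X := by
  ext a b
  rw [mul_apply]
  rcases a with a | a <;> rcases b with b | b <;>
    simp [emR, mul_apply, one_apply, conjTranspose_apply]

theorem corner_zero {X Y : Matrix I I ℂ} (hX : X.PosSemidef) (hY : Y.PosSemidef) :
    Corner X Y 0 := by
  refine ⟨isHermitian_zero, ?_⟩
  have h1 : fromBlocks X 0 0 Y = emL * X * emLᴴ + emR * Y * emRᴴ := by
    rw [emL_apply, emR_apply, fromBlocks_add]
    simp
  rw [h1]
  exact (hX.mul_mul_conjTranspose_same _).add (hY.mul_mul_conjTranspose_same _)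

theorem emLR_block (X Y Z : Matrix I I ℂ) :
    (emL - emR)ᴴ * fromBlocks X Z Z Y * (emL - emR) = X + Y - ((2 : ℝ) : ℂ) • Z := by
  have h1 : fromBlocks X Z Z Y * (emL - emR) =
      (Matrix.of fun s j => Sum.elim (fun i => X i j - Z i j) (fun i => Z i j - Y i j) s :
        Matrix (I ⊕ I) I ℂ) := by
    ext a b
    rw [mul_apply]
    rcases a with a | a <;> simp [emL, emR, one_apply, sub_eq_add_neg]
  rw [Matrix.mul_assoc, h1]
  ext a b
  rw [mul_apply, Fintype.sum_sum_type]
  simp [emL, emR, one_apply, conjTranspose_apply, Matrix.sub_apply]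
  ring

theorem corner_bound {V X Y Z : Matrix I I ℂ} (hV : V.PosSemidef) (h : Corner X Y Z) :
    2 * (V * Z).trace.re ≤ (V * X).trace.re + (V * Y).trace.re := by
  have h2 := h.2.conjTranspose_mul_mul_same (emL - emR)
  rw [emLR_block] at h2
  have h3 := Swap.tr_nonneg hV h2
  rw [mul_sub, mul_add, mul_smul_comm, trace_sub, trace_add, trace_smul, Complex.sub_re,
    Complex.add_re, smul_eq_mul, Complex.re_ofReal_mul] at h3
  linarith

theorem G_bdd {V X Y : Matrix I I ℂ} (hV : V.PosSemidef) :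
    BddAbove {r | ∃ Z, Corner X Y Z ∧ r = (V * Z).trace.re} := by
  refine ⟨((V * X).trace.re + (V * Y).trace.re) / 2, ?_⟩
  rintro r ⟨Z, hZ, rfl⟩
  linarith [corner_bound hV hZ]

theorem le_G {V X Y Z : Matrix I I ℂ} (hV : V.PosSemidef) (h : Corner X Y Z) :
    (V * Z).trace.re ≤ G V X Y := le_csSup (G_bdd hV) ⟨Z, h, rfl⟩

theorem G_le {V X Y : Matrix I I ℂ} (hX : X.PosSemidef) (hY : Y.PosSemidef) {c : ℝ}
    (h : ∀ Z, Corner X Y Z → (V * Z).trace.re ≤ c) : G V X Y ≤ c := by
  refine csSup_le ⟨_, 0, corner_zero hX hY, rfl⟩ ?_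
  rintro r ⟨Z, hZ, rfl⟩
  exact h Z hZ

theorem G_nonneg {V X Y : Matrix I I ℂ} (hV : V.PosSemidef) (hX : X.PosSemidef)
    (hY : Y.PosSemidef) : 0 ≤ G V X Y := by
  have := le_G hV (corner_zero hX hY)
  simpa using this

end

variable {A B : Type} [Fintype A] [DecidableEq A] [Fintype B] [DecidableEq B] {n : ℕ}

/-! ### product weights -/

theorem wt_mul (a b : Fin n → Matrix (A × B) (A × B) ℂ) :
    wt a * wt b = wt fun i => a i * b i := by
  ext p q
  rw [mul_apply]
  have h1 : wt (fun i => a i * b i) p q =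
      ∏ i, ∑ x : A × B, a i (at' p i) x * b i x (at' q i) := rfl
  rw [h1, Finset.prod_univ_sum, Fintype.piFinset_univ]
  refine Fintype.sum_equiv (Equiv.arrowProdEquivProdArrow (Fin n) (fun _ => A)
    (fun _ => B)).symm _ _ fun r => ?_
  unfold wt
  rw [← prod_mul_distrib]
  rfl

theorem wt_conj (a : Fin n → Matrix (A × B) (A × B) ℂ) :
    (wt a)ᴴ = wt fun i => (a i)ᴴ := by
  ext p q
  simp only [conjTranspose_apply, wt, star_prod]

theorem wt_psd {v : Fin n → Matrix (A × B) (A × B) ℂ} (hv : ∀ i, (v i).PosSemidef) :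
    (wt v).PosSemidef := by
  have h1 : ∀ i, ∃ S : Matrix (A × B) (A × B) ℂ, v i = Sᴴ * S := fun i =>
    CStarAlgebra.nonneg_iff_eq_star_mul_self.mp (hv i).nonneg
  choose S hS using h1
  have h2 : wt v = (wt S)ᴴ * wt S := by
    rw [wt_conj, wt_mul]
    congr 1
    funext i
    exact hS i
  rw [h2]
  exact posSemidef_conjTranspose_mul_self _

theorem wt_update_add (v : Fin n → Matrix (A × B) (A × B) ℂ) (i : Fin n) (c c' : ℂ)
    (M N : Matrix (A × B) (A × B) ℂ) :
    wt (Function.update v i (c • M + c' • N)) =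
      c • wt (Function.update v i M) + c' • wt (Function.update v i N) := by
  ext p q
  have h : ∀ K : Matrix (A × B) (A × B) ℂ, wt (Function.update v i K) p q =
      K (at' p i) (at' q i) * ∏ j ∈ univ.erase i, v j (at' p j) (at' q j) := by
    intro K
    rw [wt_split _ i, Function.update_self]
    congr 1
    refine prod_congr rfl fun j hj => ?_
    rw [Function.update_of_ne (ne_of_mem_erase hj)]
  rw [Matrix.add_apply, Matrix.smul_apply, Matrix.smul_apply, h, h, h, Matrix.add_apply,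
    Matrix.smul_apply, Matrix.smul_apply, smul_eq_mul, smul_eq_mul, smul_eq_mul, smul_eq_mul]
  ring

/-! ### the exchange at one site -/

theorem one_site {v : Fin n → Matrix (A × B) (A × B) ℂ} {i : Fin n}
    (hv : ∀ j, (v j).PosSemidef) (hi : v i = 1) {Q : Matrix (A × B) (A × B) ℂ}
    (hQ : Q.PosSemidef) (hQ2 : ((2 : ℂ) • (1 : Matrix (A × B) (A × B) ℂ) - Q).PosSemidef)
    {X Y : Matrix ((Fin n → A) × (Fin n → B)) ((Fin n → A) × (Fin n → B)) ℂ}
    (hX : X.PosSemidef) (hY : Y.PosSemidef) :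
    2 * G (wt v) X Y + G (wt v) (D i Q X) (D i Q Y) ≤
      2 * G (wt v) (D i 1 X) (D i 1 Y) + G (wt (Function.update v i Q)) X Y := by
  have hV := wt_psd hv
  have hVQ : (wt (Function.update v i Q)).PosSemidef := wt_psd fun j => by
    by_cases hj : j = i
    · subst hj
      rwa [Function.update_self]
    · rw [Function.update_of_ne hj]
      exact hv j
  set Q' : Matrix (A × B) (A × B) ℂ := (2 : ℂ) • 1 - Q with hQ'
  have hsum : ∀ X : Matrix ((Fin n → A) × (Fin n → B)) ((Fin n → A) × (Fin n → B)) ℂ,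
      D i Q X + D i Q' X = (2 : ℂ) • D i 1 X := by
    intro X
    rw [← D_add_left, hQ', add_sub_cancel, D_smul_left]
  -- the common estimate
  have key : ∀ Z Z', Corner X Y Z → Corner (D i Q X) (D i Q Y) Z' →
      2 * (wt v * Z).trace.re + (wt v * Z').trace.re ≤
        2 * G (wt v) (D i 1 X) (D i 1 Y) + G (wt (Function.update v i Q)) X Y := by
    intro Z Z' hZ hZ'
    have hD : Corner (D i Q' X) (D i Q' Y) (D i Q' Z) :=
      ⟨D_herm i hQ2 hZ.1, D_block i hQ2 hZ.2⟩
    have hC := (hZ'.add hD).smul (c := 1 / 2) (by norm_num)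
    have e : ∀ X : Matrix ((Fin n → A) × (Fin n → B)) ((Fin n → A) × (Fin n → B)) ℂ,
        (((1 / 2 : ℝ)) : ℂ) • (D i Q X + D i Q' X) = D i 1 X := by
      intro X
      rw [hsum, smul_smul]
      norm_num
    rw [e X, e Y] at hC
    have h1 := le_G hV hC
    have h2 := le_G hVQ hZ
    have h3 : (wt v * ((((1 / 2 : ℝ)) : ℂ) • (Z' + D i Q' Z))).trace.re =
        1 / 2 * ((wt v * Z').trace.re + (2 * (wt v * Z).trace.re -
          (wt (Function.update v i Q) * Z).trace.re)) := by
      have h4 : (wt v * D i Q' Z).trace = 2 * (wt v * Z).trace -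
          (wt (Function.update v i Q) * Z).trace := by
        rw [tr_D hi]
        have h5 : Q' = (2 : ℂ) • (1 : Matrix (A × B) (A × B) ℂ) + (-1 : ℂ) • Q := by
          rw [hQ', neg_one_smul, sub_eq_add_neg]
        rw [h5, wt_update_add, ← hi, Function.update_eq_self, add_mul, smul_mul_assoc,
          smul_mul_assoc, trace_add, trace_smul, trace_smul, smul_eq_mul, smul_eq_mul]
        ring
      rw [mul_smul_comm, mul_add, trace_smul, trace_add, h4, smul_eq_mul,
        Complex.re_ofReal_mul, Complex.add_re, Complex.sub_re]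
      simp
    rw [h3] at h1
    linarith
  have k1 : ∀ Z, Corner X Y Z → 2 * (wt v * Z).trace.re + G (wt v) (D i Q X) (D i Q Y) ≤
      2 * G (wt v) (D i 1 X) (D i 1 Y) + G (wt (Function.update v i Q)) X Y := by
    intro Z hZ
    have : G (wt v) (D i Q X) (D i Q Y) ≤ 2 * G (wt v) (D i 1 X) (D i 1 Y) +
        G (wt (Function.update v i Q)) X Y - 2 * (wt v * Z).trace.re :=
      G_le (D_psd i hQ hX) (D_psd i hQ hY) fun Z' hZ' => by linarith [key Z Z' hZ hZ']
    linarith
  have : G (wt v) X Y ≤ (2 * G (wt v) (D i 1 X) (D i 1 Y) +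
      G (wt (Function.update v i Q)) X Y - G (wt v) (D i Q X) (D i Q Y)) / 2 :=
    G_le hX hY fun Z hZ => by linarith [k1 Z hZ]
  linarith

theorem one_psd : (1 : Matrix (A × B) (A × B) ℂ).PosSemidef := PosSemidef.one

theorem psi_star {Q : Matrix (A × B) (A × B) ℂ} (hQ : Q.PosSemidef)
    (hQ2 : ((2 : ℂ) • (1 : Matrix (A × B) (A × B) ℂ) - Q).PosSemidef) {i : Fin n} :
    ∀ (l : List (Fin n)), i ∉ l → ∀ (v : Fin n → Matrix (A × B) (A × B) ℂ)
    (X Y : Matrix ((Fin n → A) × (Fin n → B)) ((Fin n → A) × (Fin n → B)) ℂ),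
    (∀ j, (v j).PosSemidef) → v i = 1 → X.PosSemidef → Y.PosSemidef →
    2 * Psi Q l v X Y + Psi Q l v (D i Q X) (D i Q Y) ≤
      2 * Psi Q l v (D i 1 X) (D i 1 Y) + Psi Q l (Function.update v i Q) X Y := by
  intro l
  induction l with
  | nil =>
    intro _ v X Y hv hi hX hY
    exact one_site hv hi hQ hQ2 hX hY
  | cons j l ih =>
    intro hil v X Y hv hi hX hY
    have hij : i ≠ j := fun h => hil (h ▸ List.mem_cons_self)
    have hil' : i ∉ l := fun h => hil (List.mem_cons_of_mem _ h)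
    have h1 := ih hil' v (D j 1 X) (D j 1 Y) hv hi (D_psd j one_psd hX) (D_psd j one_psd hY)
    have h2 := ih hil' (Function.update v j Q) X Y (fun k => by
      by_cases hk : k = j
      · subst hk
        rwa [Function.update_self]
      · rw [Function.update_of_ne hk]
        exact hv k) (by rw [Function.update_of_ne hij, hi]) hX hY
    rw [D_comm hij, D_comm hij, D_comm hij, D_comm hij] at h1
    rw [Function.update_comm hij.symm] at h2
    simp only [Psi]
    linarith

/-- **The exchange over a list of sites.** -/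
theorem phi_le_psi {Q : Matrix (A × B) (A × B) ℂ} (hQ : Q.PosSemidef)
    (hQ2 : ((2 : ℂ) • (1 : Matrix (A × B) (A × B) ℂ) - Q).PosSemidef) :
    ∀ (l : List (Fin n)), l.Nodup → ∀ (v : Fin n → Matrix (A × B) (A × B) ℂ)
    (X Y : Matrix ((Fin n → A) × (Fin n → B)) ((Fin n → A) × (Fin n → B)) ℂ),
    (∀ j, (v j).PosSemidef) → (∀ i ∈ l, v i = 1) → X.PosSemidef → Y.PosSemidef →
    Phi Q l v X Y ≤ Psi Q l v X Y := by
  intro l
  induction l with
  | nil =>
    intro _ v X Y _ _ _ _
    exact le_refl _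
  | cons i l ih =>
    intro hnd v X Y hv hi hX hY
    obtain ⟨hil, hnd'⟩ := List.nodup_cons.1 hnd
    have h1 := ih hnd' v X Y hv (fun j hj => hi j (List.mem_cons_of_mem _ hj)) hX hY
    have h2 := ih hnd' v (D i Q X) (D i Q Y) hv
      (fun j hj => hi j (List.mem_cons_of_mem _ hj)) (D_psd i hQ hX) (D_psd i hQ hY)
    have h3 := psi_star hQ hQ2 l hil v X Y hv (hi i List.mem_cons_self) hX hY
    simp only [Phi, Psi]
    linarith

end Vale.Agent.P372.H739
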