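import Vale.Agent.P372.H739.Defs

/-!
# The replacement maps: commutation, Kraus form, trace duality
-/

set_option autoImplicit false
set_option linter.unusedSectionVars false

open Matrix Kronecker Finset
open scoped ComplexOrder MatrixOrder

namespace Vale.Agent.P372.H739

variable {A B : Type} [Fintype A] [DecidableEq A] [Fintype B] [DecidableEq B] {n : ℕ}

/-! ### the replacement of one entry -/

@[simp] theorem at_up (p : (Fin n → A) × (Fin n → B)) (i : Fin n) (x : A × B) :
    at' (up p i x) i = x := by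
  simp [at', up]

theorem at_up_ne (p : (Fin n → A) × (Fin n → B)) {i j : Fin n} (h : j ≠ i) (x : A × B) :
    at' (up p i x) j = at' p j := by
  simp [at', up, h]

@[simp] theorem up_up (p : (Fin n → A) × (Fin n → B)) (i : Fin n) (x y : A × B) :
    up (up p i x) i y = up p i y := by
  simp [up]

@[simp] theorem up_at (p : (Fin n → A) × (Fin n → B)) (i : Fin n) : up p i (at' p i) = p := by
  simp [at', up]

theorem up_comm (p : (Fin n → A) × (Fin n → B)) {i j : Fin n} (h : i ≠ j) (x y : A × B) :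
    up (up p i x) j y = up (up p j y) i x := by
  simp only [up, Prod.mk.injEq]
  exact ⟨Function.update_comm h _ _ _, Function.update_comm h _ _ _⟩

/-- averaging over one site -/
theorem sum_up {M : Type*} [AddCommMonoid M] (i : Fin n)
    (F : (Fin n → A) × (Fin n → B) → M) :
    ∑ p, ∑ x, F (up p i x) = ∑ p, ∑ _x : A × B, F p := by
  rw [← Fintype.sum_prod_type', ← Fintype.sum_prod_type']
  refine Fintype.sum_equiv
    { toFun := fun z : ((Fin n → A) × (Fin n → B)) × (A × B) => (up z.1 i z.2, at' z.1 i)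
      invFun := fun z => (up z.1 i z.2, at' z.1 i)
      left_inv := fun z => by simp
      right_inv := fun z => by simp } _ _ fun z => ?_
  rfl

/-! ### linearity -/

theorem D_add_left (i : Fin n) (Q Q' : Matrix (A × B) (A × B) ℂ)
    (X : Matrix ((Fin n → A) × (Fin n → B)) ((Fin n → A) × (Fin n → B)) ℂ) :
    D i (Q + Q') X = D i Q X + D i Q' X := by
  ext p q
  simp only [D, Matrix.add_apply]
  split_ifs
  · rw [← mul_add, ← sum_add_distrib]
    congr 1
    refine sum_congr rfl fun x _ => ?_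
    rw [← sum_add_distrib]
    exact sum_congr rfl fun y _ => by ring
  · simp

theorem D_smul_left (i : Fin n) (c : ℂ) (Q : Matrix (A × B) (A × B) ℂ)
    (X : Matrix ((Fin n → A) × (Fin n → B)) ((Fin n → A) × (Fin n → B)) ℂ) :
    D i (c • Q) X = c • D i Q X := by
  ext p q
  simp only [D, Matrix.smul_apply, smul_eq_mul]
  split_ifs
  · simp only [mul_sum]
    exact sum_congr rfl fun x _ => sum_congr rfl fun y _ => by ring
  · simp

theorem D_add (i : Fin n) (Q : Matrix (A × B) (A × B) ℂ)
    (X Y : Matrix ((Fin n → A) × (Fin n → B)) ((Fin n → A) × (Fin n → B)) ℂ) :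
    D i Q (X + Y) = D i Q X + D i Q Y := by
  ext p q
  simp only [D, Matrix.add_apply]
  split_ifs
  · rw [← mul_add, ← sum_add_distrib]
    congr 1
    refine sum_congr rfl fun x _ => ?_
    rw [← sum_add_distrib]
    exact sum_congr rfl fun y _ => by ring
  · simp

theorem D_smul (i : Fin n) (c : ℂ) (Q : Matrix (A × B) (A × B) ℂ)
    (X : Matrix ((Fin n → A) × (Fin n → B)) ((Fin n → A) × (Fin n → B)) ℂ) :
    D i Q (c • X) = c • D i Q X := by
  ext p q
  simp only [D, Matrix.smul_apply, smul_eq_mul]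
  split_ifs
  · simp only [mul_sum]
    exact sum_congr rfl fun x _ => sum_congr rfl fun y _ => by ring
  · simp

/-! ### commutation -/

theorem D_comm {i j : Fin n} (h : i ≠ j) (Q Q' : Matrix (A × B) (A × B) ℂ)
    (X : Matrix ((Fin n → A) × (Fin n → B)) ((Fin n → A) × (Fin n → B)) ℂ) :
    D i Q (D j Q' X) = D j Q' (D i Q X) := by
  ext p q
  simp only [D, at_up_ne _ h.symm, at_up_ne _ h]
  by_cases h1 : at' p i = at' q i
  · by_cases h2 : at' p j = at' q j
    · simp only [h1, h2, if_true, mul_sum]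
      have e : ∀ x y x' y', X (up (up p i x) j x') (up (up q i y) j y') =
          X (up (up p j x') i x) (up (up q j y') i y) := by
        intro x y x' y'
        rw [up_comm _ h, up_comm _ h]
      simp only [e]
      calc ∑ x, ∑ y, ∑ x', ∑ y', ((Fintype.card A : ℂ) * (Fintype.card B : ℂ))⁻¹ * (Q y x *
            (((Fintype.card A : ℂ) * (Fintype.card B : ℂ))⁻¹ * (Q' y' x' *
              X (up (up p j x') i x) (up (up q j y') i y))))
          = ∑ x, ∑ x', ∑ y, ∑ y', ((Fintype.card A : ℂ) * (Fintype.card B : ℂ))⁻¹ * (Q y x *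
            (((Fintype.card A : ℂ) * (Fintype.card B : ℂ))⁻¹ * (Q' y' x' *
              X (up (up p j x') i x) (up (up q j y') i y)))) :=
            sum_congr rfl fun x _ => sum_comm
        _ = ∑ x', ∑ x, ∑ y, ∑ y', ((Fintype.card A : ℂ) * (Fintype.card B : ℂ))⁻¹ * (Q y x *
            (((Fintype.card A : ℂ) * (Fintype.card B : ℂ))⁻¹ * (Q' y' x' *
              X (up (up p j x') i x) (up (up q j y') i y)))) := sum_comm
        _ = ∑ x', ∑ x, ∑ y', ∑ y, ((Fintype.card A : ℂ) * (Fintype.card B : ℂ))⁻¹ * (Q y x *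
            (((Fintype.card A : ℂ) * (Fintype.card B : ℂ))⁻¹ * (Q' y' x' *
              X (up (up p j x') i x) (up (up q j y') i y)))) :=
            sum_congr rfl fun x' _ => sum_congr rfl fun x _ => sum_comm
        _ = ∑ x', ∑ y', ∑ x, ∑ y, ((Fintype.card A : ℂ) * (Fintype.card B : ℂ))⁻¹ * (Q y x *
            (((Fintype.card A : ℂ) * (Fintype.card B : ℂ))⁻¹ * (Q' y' x' *
              X (up (up p j x') i x) (up (up q j y') i y)))) :=
            sum_congr rfl fun x' _ => sum_comm
        _ = _ := sum_congr rfl fun x' _ => sum_congr rfl fun y' _ => sum_congr rfl fun x _ =>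
            sum_congr rfl fun y _ => by ring
    · simp [h2]
  · by_cases h2 : at' p j = at' q j
    · simp [h1]
    · simp [h1, h2]

/-! ### Kraus form -/

/-- Kraus operators of `D i (Sᴴ * S)`. -/
def Kr (i : Fin n) (s : A × B → ℂ) (z : A × B) :
    Matrix ((Fin n → A) × (Fin n → B)) ((Fin n → A) × (Fin n → B)) ℂ :=
  fun p p' => if at' p i = z ∧ p' = up p i (at' p' i) then s (at' p' i) else 0

theorem sum_Kr (i : Fin n) (p : (Fin n → A) × (Fin n → B))
    (f : (Fin n → A) × (Fin n → B) → ℂ) :
    ∑ p', (if p' = up p i (at' p' i) then f p' else 0) = ∑ x, f (up p i x) := by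
  rw [← sum_filter]
  refine sum_nbij' (fun p' => at' p' i) (fun x => up p i x) ?_ ?_ ?_ ?_ ?_
  · intro p' _
    simp
  · intro x _
    simp
  · intro p' hp'
    simp only [mem_filter, mem_univ, true_and] at hp'
    exact hp'.symm
  · intro x _
    simp
  · intro p' hp'
    simp only [mem_filter, mem_univ, true_and] at hp'
    rw [← hp']

theorem Kr_mul (i : Fin n) (s : A × B → ℂ) (z : A × B)
    (X : Matrix ((Fin n → A) × (Fin n → B)) ((Fin n → A) × (Fin n → B)) ℂ)
    (p q : (Fin n → A) × (Fin n → B)) :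
    (Kr i s z * X * (Kr i s z)ᴴ) p q =
      if at' p i = z ∧ at' q i = z then
        ∑ x, ∑ y, s x * star (s y) * X (up p i x) (up q i y) else 0 := by
  have h1 : ∀ r, (Kr i s z * X) p r =
      if at' p i = z then ∑ x, s x * X (up p i x) r else 0 := by
    intro r
    rw [mul_apply]
    by_cases hz : at' p i = z
    · rw [if_pos hz]
      have h := sum_Kr i p (fun p' => s (at' p' i) * X p' r)
      simp only [at_up] at h
      rw [← h]
      refine sum_congr rfl fun p' _ => ?_
      simp only [Kr, hz, true_and]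
      split_ifs <;> simp
    · rw [if_neg hz]
      refine sum_eq_zero fun p' _ => ?_
      simp [Kr, hz]
  rw [mul_apply]
  by_cases hzq : at' q i = z
  · have h2 : ∀ r, (Kr i s z * X) p r * (Kr i s z)ᴴ r q =
        if r = up q i (at' r i) then (Kr i s z * X) p r * star (s (at' r i)) else 0 := by
      intro r
      simp only [conjTranspose_apply, Kr, hzq, true_and]
      split_ifs <;> simp
    rw [sum_congr rfl fun r _ => h2 r, sum_Kr i q
      (fun r => (Kr i s z * X) p r * star (s (at' r i)))]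
    by_cases hzp : at' p i = z
    · rw [if_pos ⟨hzp, hzq⟩, sum_comm]
      refine sum_congr rfl fun y _ => ?_
      rw [h1, if_pos hzp, sum_mul]
      refine sum_congr rfl fun x _ => ?_
      rw [at_up]
      ring
    · rw [if_neg fun h => hzp h.1]
      refine sum_eq_zero fun y _ => ?_
      rw [h1, if_neg hzp, zero_mul]
  · rw [if_neg fun h => hzq h.2]
    refine sum_eq_zero fun r _ => ?_
    simp [Kr, hzq]

theorem D_kraus (i : Fin n) (S : Matrix (A × B) (A × B) ℂ)
    (X : Matrix ((Fin n → A) × (Fin n → B)) ((Fin n → A) × (Fin n → B)) ℂ) :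
    D i (Sᴴ * S) X = ((Fintype.card A : ℂ) * (Fintype.card B : ℂ))⁻¹ •
      ∑ k, ∑ z, Kr i (S k) z * X * (Kr i (S k) z)ᴴ := by
  ext p q
  rw [Matrix.smul_apply, Matrix.sum_apply, smul_eq_mul]
  have h1 : ∀ k, (∑ z, Kr i (S k) z * X * (Kr i (S k) z)ᴴ) p q =
      if at' p i = at' q i then ∑ x, ∑ y, S k x * star (S k y) * X (up p i x) (up q i y)
        else 0 := by
    intro k
    rw [Matrix.sum_apply]
    simp only [Kr_mul]
    by_cases h : at' p i = at' q i
    · rw [if_pos h, sum_eq_single (at' p i)]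
      · rw [if_pos ⟨rfl, h.symm⟩]
      · intro z _ hz
        rw [if_neg fun h' => hz h'.1.symm]
      · intro h'
        exact absurd (mem_univ _) h'
    · rw [if_neg h]
      refine sum_eq_zero fun z _ => ?_
      rw [if_neg fun h' => h (h'.1.trans h'.2.symm)]
  simp only [h1, D]
  by_cases h : at' p i = at' q i
  · simp only [if_pos h]
    congr 1
    have h2 : ∀ x y, (Sᴴ * S) y x * X (up p i x) (up q i y) =
        ∑ k, S k x * star (S k y) * X (up p i x) (up q i y) := by
      intro x y
      rw [mul_apply, sum_mul]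
      refine sum_congr rfl fun k _ => ?_
      rw [conjTranspose_apply]
      ring
    simp only [h2]
    calc ∑ x, ∑ y, ∑ k, S k x * star (S k y) * X (up p i x) (up q i y)
        = ∑ x, ∑ k, ∑ y, S k x * star (S k y) * X (up p i x) (up q i y) :=
          sum_congr rfl fun x _ => sum_comm
      _ = ∑ k, ∑ x, ∑ y, S k x * star (S k y) * X (up p i x) (up q i y) := sum_comm
  · simp [h]

/-! ### positivity -/

/-- Kraus form of `D i Q` for positive semidefinite `Q`. -/
theorem D_exists (i : Fin n) {Q : Matrix (A × B) (A × B) ℂ} (hQ : Q.PosSemidef) :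
    ∃ K : (A × B) × (A × B) →
      Matrix ((Fin n → A) × (Fin n → B)) ((Fin n → A) × (Fin n → B)) ℂ,
      ∀ X, D i Q X = ∑ κ, K κ * X * (K κ)ᴴ := by
  obtain ⟨S, hS⟩ := CStarAlgebra.nonneg_iff_eq_star_mul_self.mp hQ.nonneg
  have hS' : Q = Sᴴ * S := hS
  set r : ℝ := √(((Fintype.card A : ℝ) * (Fintype.card B : ℝ))⁻¹) with hr
  have hrr : ((Fintype.card A : ℂ) * (Fintype.card B : ℂ))⁻¹ = (r : ℂ) * (r : ℂ) := by
    rw [← Complex.ofReal_mul, hr, Real.mul_self_sqrt (by positivity)]
    push_cast
    rfl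
  refine ⟨fun κ => (r : ℂ) • Kr i (S κ.1) κ.2, fun X => ?_⟩
  rw [hS', D_kraus, Finset.smul_sum]
  refine Eq.trans ?_ (Fintype.sum_prod_type _).symm
  refine Finset.sum_congr rfl fun k _ => ?_
  rw [Finset.smul_sum]
  refine Finset.sum_congr rfl fun z _ => ?_
  rw [conjTranspose_smul, smul_mul_assoc, smul_mul_assoc, mul_smul_comm, smul_smul, hrr]
  congr 2
  simp

theorem D_block (i : Fin n) {Q : Matrix (A × B) (A × B) ℂ} (hQ : Q.PosSemidef)
    {X Z Z' Y : Matrix ((Fin n → A) × (Fin n → B)) ((Fin n → A) × (Fin n → B)) ℂ}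
    (h : (fromBlocks X Z Z' Y).PosSemidef) :
    (fromBlocks (D i Q X) (D i Q Z) (D i Q Z') (D i Q Y)).PosSemidef := by
  obtain ⟨K, hK⟩ := D_exists i hQ
  have h1 : fromBlocks (D i Q X) (D i Q Z) (D i Q Z') (D i Q Y) =
      ∑ κ, fromBlocks (K κ) 0 0 (K κ) * fromBlocks X Z Z' Y * (fromBlocks (K κ) 0 0 (K κ))ᴴ := by
    have h2 : ∀ κ, fromBlocks (K κ) 0 0 (K κ) * fromBlocks X Z Z' Y *
        (fromBlocks (K κ) 0 0 (K κ))ᴴ = fromBlocks (K κ * X * (K κ)ᴴ) (K κ * Z * (K κ)ᴴ)
          (K κ * Z' * (K κ)ᴴ) (K κ * Y * (K κ)ᴴ) := by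
      intro κ
      rw [fromBlocks_conjTranspose, fromBlocks_multiply, fromBlocks_multiply]
      simp
    simp only [h2, hK]
    ext a b
    rw [Matrix.sum_apply]
    rcases a with a | a <;> rcases b with b | b <;>
      simp [fromBlocks, Matrix.sum_apply]
  rw [h1]
  exact posSemidef_sum _ fun κ _ => h.mul_mul_conjTranspose_same _

theorem D_psd (i : Fin n) {Q : Matrix (A × B) (A × B) ℂ} (hQ : Q.PosSemidef)
    {X : Matrix ((Fin n → A) × (Fin n → B)) ((Fin n → A) × (Fin n → B)) ℂ}
    (h : X.PosSemidef) : (D i Q X).PosSemidef := by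
  obtain ⟨K, hK⟩ := D_exists i hQ
  rw [hK]
  exact posSemidef_sum _ fun κ _ => h.mul_mul_conjTranspose_same _

theorem D_herm (i : Fin n) {Q : Matrix (A × B) (A × B) ℂ} (hQ : Q.PosSemidef)
    {X : Matrix ((Fin n → A) × (Fin n → B)) ((Fin n → A) × (Fin n → B)) ℂ}
    (h : X.IsHermitian) : (D i Q X).IsHermitian := by
  obtain ⟨K, hK⟩ := D_exists i hQ
  rw [hK]
  unfold IsHermitian
  rw [conjTranspose_sum]
  refine sum_congr rfl fun κ _ => ?_
  rw [conjTranspose_mul, conjTranspose_mul, conjTranspose_conjTranspose, h.eq,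
    Matrix.mul_assoc]

/-! ### trace duality -/

theorem wt_up (v : Fin n → Matrix (A × B) (A × B) ℂ) (i : Fin n)
    (p q : (Fin n → A) × (Fin n → B)) (x y : A × B) :
    wt v (up p i x) (up q i y) = v i x y * ∏ j ∈ univ.erase i, v j (at' p j) (at' q j) := by
  unfold wt
  rw [← mul_prod_erase univ _ (mem_univ i), at_up, at_up]
  congr 1
  refine prod_congr rfl fun j hj => ?_
  rw [at_up_ne _ (ne_of_mem_erase hj), at_up_ne _ (ne_of_mem_erase hj)]

theorem wt_split (v : Fin n → Matrix (A × B) (A × B) ℂ) (i : Fin n)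
    (p q : (Fin n → A) × (Fin n → B)) :
    wt v p q = v i (at' p i) (at' q i) * ∏ j ∈ univ.erase i, v j (at' p j) (at' q j) := by
  unfold wt
  rw [← mul_prod_erase univ _ (mem_univ i)]

theorem card_mul_sum (i : Fin n) (F : (Fin n → A) × (Fin n → B) → ℂ) :
    ((Fintype.card A : ℂ) * (Fintype.card B : ℂ)) * ∑ p, F p = ∑ p, ∑ x, F (up p i x) := by
  rw [sum_up, mul_sum]
  refine sum_congr rfl fun p _ => ?_
  simp [Fintype.card_prod]

/-- If the weight at the site `i` is `1`, then `tr (V D_i(Q, Z)) = tr (V_Q Z)`. -/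
theorem tr_D {v : Fin n → Matrix (A × B) (A × B) ℂ} {i : Fin n} (hv : v i = 1)
    (Q : Matrix (A × B) (A × B) ℂ)
    (Z : Matrix ((Fin n → A) × (Fin n → B)) ((Fin n → A) × (Fin n → B)) ℂ) :
    (wt v * D i Q Z).trace = (wt (Function.update v i Q) * Z).trace := by
  by_cases hd : (Fintype.card A : ℂ) * (Fintype.card B : ℂ) = 0
  · have hE : IsEmpty ((Fin n → A) × (Fin n → B)) := by
      rcases mul_eq_zero.1 hd with h | h
      · have hA : IsEmpty A := Fintype.card_eq_zero_iff.1 (by exact_mod_cast h)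
        exact ⟨fun p => hA.elim (p.1 i)⟩
      · have hB : IsEmpty B := Fintype.card_eq_zero_iff.1 (by exact_mod_cast h)
        exact ⟨fun p => hB.elim (p.2 i)⟩
    simp [trace]
  set d : ℂ := (Fintype.card A : ℂ) * (Fintype.card B : ℂ) with hdd
  -- the common value
  set R : (Fin n → A) × (Fin n → B) → (Fin n → A) × (Fin n → B) → ℂ := fun p q =>
    (∏ j ∈ univ.erase i, v j (at' p j) (at' q j)) *
      ∑ x, ∑ y, Q y x * Z (up q i x) (up p i y) with hR
  have hRup : ∀ p q x y, R (up p i x) (up q i y) = R p q := by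
    intro p q x y
    simp only [hR, up_up]
    congr 1
    refine prod_congr rfl fun j hj => ?_
    rw [at_up_ne _ (ne_of_mem_erase hj), at_up_ne _ (ne_of_mem_erase hj)]
  have hL : (wt v * D i Q Z).trace = ∑ p, ∑ q, if at' p i = at' q i then d⁻¹ * R p q else 0 := by
    simp only [trace, diag_apply, mul_apply]
    refine sum_congr rfl fun p _ => sum_congr rfl fun q _ => ?_
    rw [wt_split v i, hv]
    by_cases h : at' p i = at' q i
    · rw [if_pos h, h, one_apply_eq, one_mul]
      simp only [D, hR, if_pos h.symm]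
      rw [← hdd]
      ring
    · rw [if_neg h, one_apply_ne h, zero_mul, zero_mul]
  have hRt : (wt (Function.update v i Q) * Z).trace =
      ∑ p, ∑ q, Q (at' p i) (at' q i) *
        (∏ j ∈ univ.erase i, v j (at' p j) (at' q j)) * Z q p := by
    simp only [trace, diag_apply, mul_apply]
    refine sum_congr rfl fun p _ => sum_congr rfl fun q _ => ?_
    rw [wt_split _ i, Function.update_self]
    congr 2
    refine prod_congr rfl fun j hj => ?_
    rw [Function.update_of_ne (ne_of_mem_erase hj)]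
  have hL2 : d * (d * (wt v * D i Q Z).trace) = ∑ p, ∑ q, R p q := by
    have h3 : ∀ p, d * ∑ q, (if at' p i = at' q i then d⁻¹ * R p q else 0) =
        ∑ q, d⁻¹ * R p q := by
      intro p
      rw [hdd, card_mul_sum i, ← hdd]
      refine Finset.sum_congr rfl fun q _ => ?_
      simp only [at_up]
      rw [sum_ite_eq univ (at' p i) (fun y => d⁻¹ * R p (up q i y)), if_pos (mem_univ _)]
      have h4 := hRup p q (at' p i) (at' p i)
      rw [up_at] at h4
      rw [h4]
    rw [hL, mul_sum (univ) _ d, Finset.sum_congr rfl fun p _ => h3 p, mul_sum]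
    refine Finset.sum_congr rfl fun p _ => ?_
    rw [mul_sum]
    refine Finset.sum_congr rfl fun q _ => ?_
    rw [← mul_assoc, mul_inv_cancel₀ hd, one_mul]
  have hR2 : d * (d * (wt (Function.update v i Q) * Z).trace) = ∑ p, ∑ q, R p q := by
    rw [hRt, mul_sum (univ) _ d, hdd,
      Finset.sum_congr rfl fun p _ => card_mul_sum i (fun q => Q (at' p i) (at' q i) *
        (∏ j ∈ univ.erase i, v j (at' p j) (at' q j)) * Z q p), card_mul_sum i]
    refine Finset.sum_congr rfl fun p _ => ?_
    rw [sum_comm]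
    refine Finset.sum_congr rfl fun q _ => ?_
    simp only [hR, mul_sum]
    rw [sum_comm]
    refine Finset.sum_congr rfl fun x _ => Finset.sum_congr rfl fun y _ => ?_
    simp only [at_up]
    have h5 : ∏ j ∈ univ.erase i, v j (at' (up p i y) j) (at' (up q i x) j) =
        ∏ j ∈ univ.erase i, v j (at' p j) (at' q j) := by
      refine prod_congr rfl fun j hj => ?_
      rw [at_up_ne _ (ne_of_mem_erase hj), at_up_ne _ (ne_of_mem_erase hj)]
    rw [h5]
    ring
  exact mul_left_cancel₀ hd (mul_left_cancel₀ hd (hL2.trans hR2.symm))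

end Vale.Agent.P372.H739
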